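import Vale.Agent.P161.Main

/-!
# P161 : the free Ising measure on the `d`-regular tree is a factor of i.i.d. whenever
`tanh β < (d - 1)^{-1/2}`
-/

open MeasureTheory

namespace Vale.Agent.Results.P161.FreeIsingFIID

/-- Let `G` be a `d`-regular tree, `d ≥ 3`, and `β ≥ 0` with `tanh β * √(d - 1) < 1`. There is
exactly one free zero-field Ising measure on `G` with parameter `tanh β`, and it is a factor of
i.i.d. -/
theorem result {V : Type*} (G : SimpleGraph V) [G.LocallyFinite] (hG : G.IsTree) (d : ℕ)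
    (hd : 3 ≤ d) (hreg : G.IsRegularOfDegree d) (β : ℝ) (hβ : 0 ≤ β)
    (hβ' : Real.tanh β * √((d : ℝ) - 1) < 1) :
    ∃ μ : Measure (V → Bool), P161.IsFreeIsing G (Real.tanh β) μ ∧
      (∀ μ' : Measure (V → Bool), P161.IsFreeIsing G (Real.tanh β) μ' → μ' = μ) ∧
      P161.IsFactorOfIID G μ := by
  have h0 : 0 ≤ Real.tanh β := by
    rw [Real.tanh_eq_sinh_div_cosh]
    exact div_nonneg (Real.sinh_nonneg_iff.mpr hβ) (Real.cosh_pos β).le
  have h1 : Real.tanh β ≤ 1 := (Real.tanh_lt_one β).le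
  obtain ⟨μ, hμ⟩ := P161.exists_freeIsing hG h0 h1
  exact ⟨μ, hμ, fun μ' hμ' => P161.uniq hG.connected hμ' hμ, P161.main hd hG hreg h0 hβ' hμ⟩

end Vale.Agent.Results.P161.FreeIsingFIID
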